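import Vale.Agent.P132.Defs
import Vale.Agent.P132.WFull
import Vale.Agent.P132.Main

namespace Vale.Agent.Results.P132.Bicentralizer

open Vale.Agent.P132

universe u

/-- Connes' bicentralizer conjecture. -/
theorem result {H : Type u} [NormedAddCommGroup H] [InnerProductSpace ℂ H] [CompleteSpace H]
    (M : VonNeumannAlgebra H) (hfactor : IsFactor M) (hIII : IsTypeIII M)
    (hS : ∀ t : ℝ, 0 < t → (t : ℂ) ∈ stateS M)
    (φ : (H →L[ℂ] H) → ℂ) (hφ : IsFNState M φ) :
    bicentralizer M φ = {a | ∃ c : ℂ, a = c • (1 : H →L[ℂ] H)} := by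
  rw [T.reduce (fun _ _ _ _ D a => main_abstract D a) hφ hfactor hIII
    fun s => hS _ (Real.exp_pos s)]
  exact Set.ext fun a => exists_congr fun c => eq_comm

end Vale.Agent.Results.P132.Bicentralizer
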